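import Vale.Agent.P088.H776.Dec

/-!
# P088, row A3: expansion in Fourier series on the cube
-/

open MeasureTheory Set Filter
open scoped ContDiff Matrix Topology

set_option linter.all false

noncomputable section

namespace Vale.Agent.P088.H776

open Vale.Agent.P088.LR

variable {n : ℕ}

/-! ## Summability of the weights -/

lemma wt_one (k : Ix n) : 1 ≤ wt k := by
  unfold wt
  have := Finset.sum_nonneg fun j (_ : j ∈ Finset.univ) => abs_nonneg (k j : ℝ)
  linarith

lemma wt_pos (k : Ix n) : 0 < wt k := zero_lt_one.trans_le (wt_one k)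

lemma wt_ge (k : Ix n) (j : Fin n) : 1 + |(k j : ℝ)| ≤ wt k := by
  unfold wt
  have := Finset.single_le_sum (f := fun j => |(k j : ℝ)|) (fun i _ => abs_nonneg _)
    (Finset.mem_univ j)
  linarith

lemma sum_prod {g : ℤ → ℝ} (hg0 : ∀ a, 0 ≤ g a) (hg : Summable g) :
    ∀ n : ℕ, Summable fun k : Fin n → ℤ => ∏ j, g (k j) := by
  intro n
  induction n with
  | zero => exact Summable.of_finite
  | succ n ih =>
    rw [← (Fin.consEquiv fun _ => ℤ).summable_iff]
    have h1 : ((fun k : Fin (n + 1) → ℤ => ∏ j, g (k j)) ∘ (Fin.consEquiv fun _ => ℤ)) =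
        fun p : ℤ × (Fin n → ℤ) => g p.1 * ∏ j, g (p.2 j) := by
      funext p
      simp [Function.comp, Fin.consEquiv, Fin.prod_univ_succ]
    rw [h1]
    have h2 : 0 ≤ fun k : Fin n → ℤ => ∏ j, g (k j) := fun k =>
      Finset.prod_nonneg fun j _ => hg0 _
    exact Summable.mul_of_nonneg (f := g) (g := fun k : Fin n → ℤ => ∏ j, g (k j)) hg ih hg0 h2

lemma sum_int {p : ℝ} (hp : 1 < p) : Summable fun a : ℤ => (1 + |(a : ℝ)|) ^ (-p) := by
  have h1 : Summable fun a : ℕ => ((1 : ℝ) + a) ^ (-p) := by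
    have h2 := (summable_nat_add_iff 1).2 (Real.summable_nat_rpow.2 (by linarith : -p < -1))
    refine h2.congr fun a => ?_
    push_cast
    rw [add_comm]
  refine Summable.of_nat_of_neg ?_ ?_
  · refine h1.congr fun a => ?_
    rw [Int.cast_natCast, abs_of_nonneg (Nat.cast_nonneg a)]
  · refine h1.congr fun a => ?_
    rw [Int.cast_neg, abs_neg, Int.cast_natCast, abs_of_nonneg (Nat.cast_nonneg a)]

lemma sum_wt (n : ℕ) : Summable fun k : Ix n => (wt k ^ (n + 1))⁻¹ := by
  rcases Nat.eq_zero_or_pos n with h0 | hn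
  · subst h0
    exact Summable.of_finite
  · have hn' : (0 : ℝ) < n := Nat.cast_pos.2 hn
    set p : ℝ := ((n : ℝ) + 1) / n with hp
    have hp1 : 1 < p := by
      rw [hp, one_lt_div hn']; linarith
    have h1 := sum_prod (g := fun a : ℤ => (1 + |(a : ℝ)|) ^ (-p))
      (fun a => by positivity) (sum_int hp1) n
    refine Summable.of_nonneg_of_le (fun k => by have := wt_pos k; positivity) (fun k => ?_) h1
    have h2 : ∏ j, (1 + |(k j : ℝ)|) ^ p ≤ ∏ _j : Fin n, wt k ^ p :=
      Finset.prod_le_prod (fun j _ => by positivity) fun j _ =>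
        Real.rpow_le_rpow (by positivity) (wt_ge k j) (by linarith)
    have h3 : ∏ _j : Fin n, wt k ^ p = wt k ^ (n + 1) := by
      rw [Finset.prod_const, Finset.card_univ, Fintype.card_fin, ← Real.rpow_natCast,
        ← Real.rpow_mul (wt_pos k).le, hp, div_mul_cancel₀ _ hn'.ne', ← Real.rpow_natCast]
      push_cast
      rfl
    have h4 : ∏ j, (1 + |(k j : ℝ)|) ^ (-p) = (∏ j, (1 + |(k j : ℝ)|) ^ p)⁻¹ := by
      rw [← Finset.prod_inv_distrib]
      exact Finset.prod_congr rfl fun j _ => Real.rpow_neg (by positivity) _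
    rw [h4]
    rw [h3] at h2
    refine inv_anti₀ ?_ h2
    exact Finset.prod_pos fun j _ => by positivity

/-! ## Decay of the coefficients -/

lemma cf_decay {f : V n → ℂ} (hf : ContDiff ℝ ∞ f) (hs : tsupport f ⊆ cube n) {N : ℕ} {B : ℝ}
    (hB : Cl N B f) {θ : V n} (hθ : ∀ j, |θ j| ≤ 1) (k : Ix n) :
    wt k ^ N * ‖cf θ f k‖ ≤ ((n : ℝ) + 1) ^ N * B := by
  have hn0 : (0 : ℝ) ≤ n := Nat.cast_nonneg n
  by_cases h : ∃ j, 2 ≤ |(k j : ℝ)|
  · obtain ⟨j₀, hj₀⟩ := h
    haveI : Nonempty (Fin n) := ⟨j₀⟩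
    obtain ⟨j, hj⟩ := Finite.exists_max fun j => |(k j : ℝ)|
    have hK : 2 ≤ |(k j : ℝ)| := hj₀.trans (hj j₀)
    have h1 : wt k ≤ 1 + n * |(k j : ℝ)| := by
      unfold wt
      have h2 : ∑ i, |(k i : ℝ)| ≤ ∑ _i : Fin n, |(k j : ℝ)| := Finset.sum_le_sum fun i _ => hj i
      rw [Finset.sum_const, Finset.card_univ, Fintype.card_fin, nsmul_eq_mul] at h2
      linarith
    have h2 : |(k j : ℝ)| / 2 ≤ |fr θ k j| := by
      have h3 : |(k j : ℝ)| ≤ |fr θ k j| + |θ j| := by
        have h4 : (k j : ℝ) = fr θ k j - θ j := by unfold fr; ring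
        rw [h4]
        exact abs_sub _ _
      have := hθ j
      linarith
    have h3 : wt k ≤ (n + 1) * (2 * Real.pi * |fr θ k j|) := by
      have hpi := Real.pi_gt_three
      have h4 : |(k j : ℝ)| ≤ 2 * Real.pi * |fr θ k j| := by
        have h5 : 2 * |fr θ k j| ≤ 2 * Real.pi * |fr θ k j| := by
          have := abs_nonneg (fr θ k j)
          nlinarith
        linarith
      have h5 : (1 : ℝ) ≤ 2 * Real.pi * |fr θ k j| := by linarith
      nlinarith
    have h4 := ft_bound N hf hs hB (fr θ k) (some j)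
    simp only [Option.elim_some] at h4
    calc wt k ^ N * ‖cf θ f k‖ ≤ ((n + 1) * (2 * Real.pi * |fr θ k j|)) ^ N * ‖cf θ f k‖ :=
          mul_le_mul_of_nonneg_right (pow_le_pow_left₀ (wt_pos k).le h3 N) (norm_nonneg _)
      _ = ((n : ℝ) + 1) ^ N * ((2 * Real.pi * |fr θ k j|) ^ N * ‖ft f (fr θ k)‖) := by
          rw [mul_pow, cf]; ring
      _ ≤ ((n : ℝ) + 1) ^ N * B := mul_le_mul_of_nonneg_left h4 (by positivity)
  · push Not at h
    have h1 : ∀ j, |(k j : ℝ)| ≤ 1 := by
      intro j
      have h2 : |k j| < 2 := by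
        have := h j
        exact_mod_cast this
      have h3 : |k j| ≤ 1 := by omega
      exact_mod_cast h3
    have h2 : wt k ≤ n + 1 := by
      unfold wt
      have h3 : ∑ i, |(k i : ℝ)| ≤ ∑ _i : Fin n, (1 : ℝ) := Finset.sum_le_sum fun i _ => h1 i
      rw [Finset.sum_const, Finset.card_univ, Fintype.card_fin, nsmul_eq_mul, mul_one] at h3
      linarith
    have h3 := ft_bound N hf hs hB (fr θ k) none
    simp only [Option.elim_none, pow_zero, one_mul] at h3
    exact mul_le_mul (pow_le_pow_left₀ (wt_pos k).le h2 N) h3 (norm_nonneg _) (by positivity)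

lemma cf_term {f : V n → ℂ} (hf : ContDiff ℝ ∞ f) (hs : tsupport f ⊆ cube n) {m : ℕ} {B : ℝ}
    (hB : Cl (m + n + 1) B f) {θ : V n} (hθ : ∀ j, |θ j| ≤ 1) (k : Ix n) :
    wt k ^ m * ‖cf θ f k‖ ≤ ((n : ℝ) + 1) ^ (m + n + 1) * B * (wt k ^ (n + 1))⁻¹ := by
  have h1 := cf_decay hf hs hB hθ k
  have hw := wt_pos k
  have hw' : 0 < wt k ^ (n + 1) := pow_pos hw _
  rw [← div_eq_mul_inv, le_div_iff₀ hw']
  calc wt k ^ m * ‖cf θ f k‖ * wt k ^ (n + 1) = wt k ^ (m + n + 1) * ‖cf θ f k‖ := by
        rw [add_assoc, pow_add]; ring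
    _ ≤ _ := h1

lemma cf_RD {f : V n → ℂ} (hf : ContDiff ℝ ∞ f) (hs : tsupport f ⊆ cube n) {θ : V n}
    (hθ : ∀ j, |θ j| ≤ 1) : RD (cf θ f) := by
  intro m
  obtain ⟨B, hB⟩ := exists_cl hf (cube_compact hs) (m + n + 1)
  exact Summable.of_nonneg_of_le (fun k => by have := wt_pos k; positivity)
    (fun k => cf_term hf hs hB hθ k) ((sum_wt n).mul_left _)

/-! ## The series -/

/-- the periodic extension -/
def per (g : V n → ℂ) (t : UnitAddTorus (Fin n)) : ℂ :=
  g fun j => (AddCircle.equivIco 1 0 (t j) : ℝ)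

lemma per_cont {g : V n → ℂ} (hg : Continuous g) (hs : tsupport g ⊆ cube n) :
    Continuous (per g) := by
  rw [continuous_iff_continuousAt]
  intro t
  by_cases h : ∃ j, t j = 0
  · obtain ⟨j, hj⟩ := h
    -- `g` vanishes near the face
    obtain ⟨δ, hδ, hδg⟩ : ∃ δ : ℝ, 0 < δ ∧ ∀ x : V n, (x j < δ ∨ 1 - δ < x j) → g x = 0 := by
      have hc : IsCompact (tsupport g) := cube_compact hs
      rcases (tsupport g).eq_empty_or_nonempty with he | hne
      · refine ⟨1, one_pos, fun x _ => ?_⟩
        by_contra hx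
        have := subset_tsupport g (Function.mem_support.2 hx)
        rw [he] at this
        exact this
      · obtain ⟨y, hy, hmin⟩ := hc.exists_isMinOn hne
          (f := fun x : V n => min (x j) (1 - x j))
          (((continuous_apply j).min (continuous_const.sub (continuous_apply j))).continuousOn)
        refine ⟨min (y j) (1 - y j), ?_, fun x hx => ?_⟩
        · have := hs hy j
          exact lt_min this.1 (by linarith [this.2])
        · by_contra hgx
          have h1 : min (y j) (1 - y j) ≤ min (x j) (1 - x j) :=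
            hmin (subset_tsupport g (Function.mem_support.2 hgx))
          have h2 := h1.trans (min_le_left _ _)
          have h3 := h1.trans (min_le_right _ _)
          rcases hx with hx | hx <;> linarith
    have hn : ∀ᶠ t' in 𝓝 t, ‖t' j‖ < δ := by
      have h1 : Continuous fun t' : UnitAddTorus (Fin n) => ‖t' j‖ := (continuous_apply j).norm
      have h2 : ‖t j‖ < δ := by rw [hj, norm_zero]; exact hδ
      exact h1.continuousAt.eventually (gt_mem_nhds h2)
    have hz : ∀ᶠ t' in 𝓝 t, per g t' = 0 := by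
      filter_upwards [hn] with t' ht'
      refine hδg _ ?_
      set r : ℝ := (AddCircle.equivIco 1 0 (t' j) : ℝ) with hr
      have hr01 : r ∈ Ico (0 : ℝ) (0 + 1) := (AddCircle.equivIco 1 0 (t' j)).2
      rw [zero_add] at hr01
      have h1 : ((r : ℝ) : UnitAddCircle) = t' j := AddCircle.coe_equivIco
      have h2 : ‖((r : ℝ) : UnitAddCircle)‖ = |r - round r| := UnitAddCircle.norm_eq
      rw [← h1, h2] at ht'
      rcases lt_or_ge r (1 / 2) with h3 | h3
      · left
        have h4 : round r = 0 := by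
          rw [round_eq_zero_iff]
          exact ⟨by linarith [hr01.1], h3⟩
        rw [h4, Int.cast_zero, sub_zero, abs_of_nonneg hr01.1] at ht'
        exact ht'
      · right
        have h4 : round r = 1 := by
          rw [round_eq, Int.floor_eq_iff]
          push_cast
          constructor <;> linarith [hr01.2]
        rw [h4, Int.cast_one, abs_sub_comm, abs_of_nonneg (by linarith [hr01.2])] at ht'
        linarith
    have h0 : per g t = 0 := hz.self_of_nhds
    rw [ContinuousAt, h0]
    exact tendsto_const_nhds.congr' (hz.mono fun t' ht' => ht'.symm)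
  · push Not at h
    have h1 : ContinuousAt (fun t : UnitAddTorus (Fin n) => fun j =>
        (AddCircle.equivIco 1 0 (t j) : ℝ)) t := by
      refine continuousAt_pi.2 fun j => ?_
      have h2 : ContinuousAt (AddCircle.equivIco (1 : ℝ) 0) (t j) := by
        refine AddCircle.continuousAt_equivIco 1 0 ?_
        simpa using h j
      have h3 : ContinuousAt (fun t : UnitAddTorus (Fin n) => t j) t :=
        (continuous_apply j).continuousAt
      have h4 : ContinuousAt (fun t : UnitAddTorus (Fin n) => AddCircle.equivIco (1 : ℝ) 0 (t j)) t :=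
        ContinuousAt.comp (g := AddCircle.equivIco (1 : ℝ) 0)
          (f := fun t : UnitAddTorus (Fin n) => t j) h2 h3
      exact continuousAt_subtype_val.comp h4
    exact hg.continuousAt.comp h1

lemma per_coe {g : V n → ℂ} (hs : tsupport g ⊆ cube n) {x : V n} (hx : ∀ j, x j ∈ Ioc (0 : ℝ) 1) :
    per g (fun j => ((x j : ℝ) : UnitAddCircle)) = g x := by
  by_cases h : ∀ j, x j < 1
  · unfold per
    congr 1
    funext j
    have h1 : x j ∈ Ico (0 : ℝ) (0 + 1) := ⟨(hx j).1.le, by rw [zero_add]; exact h j⟩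
    exact congrArg Subtype.val (AddCircle.equivIco_coe_eq h1)
  · push Not at h
    obtain ⟨j, hj⟩ := h
    have hxj : x j = 1 := le_antisymm (hx j).2 hj
    have h1 : g x = 0 := by
      by_contra hg
      have := (hs (subset_tsupport g (Function.mem_support.2 hg)) j).2
      linarith
    have h2 : per g (fun j => ((x j : ℝ) : UnitAddCircle)) = 0 := by
      unfold per
      by_contra hg
      have h3 := (hs (subset_tsupport g (Function.mem_support.2 hg)) j).1
      beta_reduce at h3
      have h4 : ((x j : ℝ) : UnitAddCircle) = ((0 : ℝ) : UnitAddCircle) := by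
        rw [hxj, AddCircle.coe_period, QuotientAddGroup.mk_zero]
      have h5 : (0 : ℝ) ∈ Ico (0 : ℝ) (0 + 1) := ⟨le_rfl, by norm_num⟩
      rw [h4, AddCircle.equivIco_coe_eq h5] at h3
      exact lt_irrefl _ h3
    rw [h1, h2]

lemma mFourier_coe (k : Ix n) (x : V n) :
    UnitAddTorus.mFourier k (fun j => ((x j : ℝ) : UnitAddCircle)) = ex (fun j => (k j : ℝ)) x := by
  have h1 : UnitAddTorus.mFourier k (fun j => ((x j : ℝ) : UnitAddCircle)) =
      ∏ j, fourier (k j) ((x j : ℝ) : UnitAddCircle) := rfl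
  rw [h1]
  unfold ex
  have h2 : ∀ j, fourier (k j) ((x j : ℝ) : UnitAddCircle) =
      Complex.exp (2 * Real.pi * Complex.I * ((((k j : ℤ) : ℝ) * x j : ℝ) : ℂ)) := by
    intro j
    rw [fourier_coe_apply]
    congr 1
    push_cast
    ring
  rw [Finset.prod_congr rfl fun j _ => h2 j, ← Complex.exp_sum, ← Finset.mul_sum,
    ← Complex.ofReal_sum]

/-- **Row A3** -/
theorem rowA3 : RowA3 := by
  intro n m
  set S : ℝ := ∑' k : Ix n, (wt k ^ (n + 1))⁻¹ with hS
  have hS0 : 0 ≤ S := tsum_nonneg fun k => by have := wt_pos k; positivity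
  refine ⟨((n : ℝ) + 1) ^ (m + n + 1) * S + 1, by positivity, fun f hf hs θ hθ =>
    ⟨cf_RD hf hs hθ, fun x hx => ?_, fun B hB => ?_⟩⟩
  · set g : V n → ℂ := fun x => f x * ex (-θ) x with hg
    have hgc : ContDiff ℝ ∞ g := hf.mul (ex_contDiff _)
    have hgs : tsupport g ⊆ cube n := by
      refine (closure_mono ?_).trans hs
      intro y hy
      refine Function.mem_support.2 fun h0 => hy ?_
      simp only [hg]
      rw [h0, zero_mul]
    set G : C(UnitAddTorus (Fin n), ℂ) := ⟨per g, per_cont hgc.continuous hgs⟩ with hG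
    have hcoef : ∀ k : Ix n, UnitAddTorus.mFourierCoeff G k = cf θ f k := by
      intro k
      rw [UnitAddTorus.mFourierCoeff_eq_integral _ _ 0]
      unfold cf ft
      have h1 : ∫ x : V n in {x : V n | ∀ i, x i ∈ Ioc ((0 : V n) i) ((0 : V n) i + 1)},
          UnitAddTorus.mFourier (-k) (fun i => ((x i : ℝ) : UnitAddCircle)) •
            G (fun i => ((x i : ℝ) : UnitAddCircle)) =
          ∫ x : V n in {x : V n | ∀ i, x i ∈ Ioc ((0 : V n) i) ((0 : V n) i + 1)},
            f x * ex (-fr θ k) x := by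
        refine setIntegral_congr_fun (MeasurableSet.univ_pi' fun i => measurableSet_Ioc)
          fun y hy => ?_
        have hy' : ∀ j, y j ∈ Ioc (0 : ℝ) 1 := fun j => by
          have := hy j
          simpa using this
        beta_reduce
        have h2 : G (fun i => ((y i : ℝ) : UnitAddCircle)) = g y := per_coe hgs hy'
        rw [h2, mFourier_coe, smul_eq_mul]
        simp only [hg]
        have h3 : ex (-fr θ k) y = ex (fun j => (((-k) j : ℤ) : ℝ)) y * ex (-θ) y := by
          rw [← ex_add]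
          congr 1
          funext j
          simp [fr]
          ring
        rw [h3]
        ring
      rw [h1]
      refine setIntegral_eq_integral_of_forall_compl_eq_zero fun y hy => ?_
      have h2 : f y = 0 := by
        by_contra h
        refine hy fun i => ?_
        have := hs (subset_tsupport f (Function.mem_support.2 h)) i
        simp only [Pi.zero_apply, zero_add]
        exact ⟨this.1, this.2.le⟩
      rw [h2, zero_mul]
    have hsum : Summable (UnitAddTorus.mFourierCoeff G) := by
      have h1 : UnitAddTorus.mFourierCoeff G = cf θ f := funext hcoef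
      rw [h1]
      have h2 := cf_RD hf hs hθ 0
      simp only [pow_zero, one_mul] at h2
      exact Summable.of_norm h2
    have h1 := UnitAddTorus.hasSum_mFourier_series_apply_of_summable hsum
      (fun j => ((x j : ℝ) : UnitAddCircle))
    have hx' : ∀ j, x j ∈ Ioc (0 : ℝ) 1 := fun j => ⟨(hx j).1, (hx j).2.le⟩
    have h2 : G (fun j => ((x j : ℝ) : UnitAddCircle)) = g x := per_coe hgs hx'
    rw [h2] at h1
    have h3 := h1.mul_right (ex θ x)
    have h4 : g x * ex θ x = f x := by
      simp only [hg]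
      rw [mul_assoc, ← ex_add, neg_add_cancel, ex_zero, mul_one]
    rw [h4] at h3
    unfold Es
    rw [← h3.tsum_eq]
    refine tsum_congr fun k => ?_
    rw [hcoef, mFourier_coe, smul_eq_mul, mul_assoc, ← ex_add]
    rfl
  · have hB0 : 0 ≤ B := (norm_nonneg _).trans (cl_zero hB 0)
    unfold nm
    have h1 : ∑' k : Ix n, wt k ^ m * ‖cf θ f k‖ ≤
        ∑' k : Ix n, ((n : ℝ) + 1) ^ (m + n + 1) * B * (wt k ^ (n + 1))⁻¹ :=
      (cf_RD hf hs hθ m).tsum_le_tsum (fun k => cf_term hf hs hB hθ k) ((sum_wt n).mul_left _)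
    rw [tsum_mul_left] at h1
    refine h1.trans ?_
    rw [← hS]
    nlinarith

end Vale.Agent.P088.H776
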