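import Vale.Agent.P088.H198.Defs

/-!
# P088, row A3: decay of the Fourier coefficients
-/

open MeasureTheory Set Filter
open scoped ContDiff Matrix Topology

set_option linter.all false

noncomputable section

namespace Vale.Agent.P088.H776

open Vale.Agent.P088.LR

variable {n : ℕ}

/-! ## Exponentials -/

lemma ex_eq (ξ x : V n) :
    ex ξ x = Complex.exp (((2 * Real.pi * ∑ j, ξ j * x j : ℝ) : ℂ) * Complex.I) := by
  unfold ex
  congr 1
  push_cast
  ring

lemma ex_norm (ξ x : V n) : ‖ex ξ x‖ = 1 := by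
  rw [ex_eq, Complex.norm_exp_ofReal_mul_I]

lemma ex_ne (ξ x : V n) : ex ξ x ≠ 0 := Complex.exp_ne_zero _

lemma ex_add (ξ η x : V n) : ex (ξ + η) x = ex ξ x * ex η x := by
  have h : ∑ j, (ξ + η) j * x j = ∑ j, ξ j * x j + ∑ j, η j * x j := by
    rw [← Finset.sum_add_distrib]
    exact Finset.sum_congr rfl fun j _ => by rw [Pi.add_apply, add_mul]
  unfold ex
  rw [h, ← Complex.exp_add, Complex.ofReal_add, mul_add]

lemma ex_zero (x : V n) : ex 0 x = 1 := by
  unfold ex
  simp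

lemma ex_contDiff (ξ : V n) : ContDiff ℝ ∞ (ex ξ) := by
  have h : ContDiff ℝ ∞ (fun x : V n => ∑ j, ξ j * x j) := ContDiff.sum fun j _ =>
    contDiff_const.mul (ContinuousLinearMap.proj (R := ℝ) (φ := fun _ : Fin n => ℝ) j).contDiff
  have h2 : ContDiff ℝ ∞ (fun x : V n => ((∑ j, ξ j * x j : ℝ) : ℂ)) :=
    Complex.ofRealCLM.contDiff.comp h
  exact ContDiff.cexp (contDiff_const.mul h2)

lemma ex_pd (ξ x : V n) (i : Fin n) :
    pd i (ex ξ) x = 2 * Real.pi * Complex.I * (ξ i : ℂ) * ex ξ x := by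
  have h1 : HasFDerivAt (fun x : V n => ∑ j, ξ j * x j)
      (∑ j, ξ j • (ContinuousLinearMap.proj j : V n →L[ℝ] ℝ)) x :=
    HasFDerivAt.fun_sum fun j _ => (hasFDerivAt_apply j x).const_mul (ξ j)
  have h2 : HasFDerivAt (fun x : V n => ((∑ j, ξ j * x j : ℝ) : ℂ))
      (Complex.ofRealCLM.comp (∑ j, ξ j • (ContinuousLinearMap.proj j : V n →L[ℝ] ℝ))) x :=
    Complex.ofRealCLM.hasFDerivAt.comp x h1
  have h3 := (h2.const_mul (2 * Real.pi * Complex.I : ℂ)).cexp
  have h4 : HasFDerivAt (ex ξ) _ x := h3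
  unfold pd
  rw [h4.fderiv]
  simp only [ContinuousLinearMap.smul_apply, ContinuousLinearMap.comp_apply,
    ContinuousLinearMap.sum_apply, ContinuousLinearMap.proj_apply, Complex.ofRealCLM_apply,
    smul_eq_mul, Pi.single_apply, mul_ite, mul_one, mul_zero, Finset.sum_ite_eq',
    Finset.sum_ite_eq, Finset.mem_univ, if_true]
  unfold ex
  ring

/-! ## Integration by parts -/

lemma pd_contDiff {f : V n → ℂ} (hf : ContDiff ℝ ∞ f) (j : Fin n) : ContDiff ℝ ∞ (pd j f) :=
  (hf.fderiv_right (m := ∞) le_rfl).clm_apply contDiff_const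

lemma tsupport_pd (f : V n → ℂ) (j : Fin n) : tsupport (pd j f) ⊆ tsupport f :=
  tsupport_fderiv_apply_subset ℝ (Pi.single j 1)

lemma cube_compact {f : V n → ℂ} (h : tsupport f ⊆ cube n) : HasCompactSupport f := by
  refine HasCompactSupport.of_support_subset_isCompact (K := Set.Icc 0 1) isCompact_Icc ?_
  intro x hx
  have h1 := h (subset_tsupport f hx)
  exact ⟨fun j => (h1 j).1.le, fun j => (h1 j).2.le⟩

lemma ft_pd {f : V n → ℂ} (hf : ContDiff ℝ ∞ f) (hs : tsupport f ⊆ cube n) (ξ : V n) (j : Fin n) :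
    ft (pd j f) ξ = 2 * Real.pi * Complex.I * (ξ j : ℂ) * ft f ξ := by
  have hc := cube_compact hs
  have hc' : HasCompactSupport (pd j f) := cube_compact ((tsupport_pd f j).trans hs)
  have he := ex_contDiff (-ξ)
  have hep : Continuous (pd j (ex (-ξ))) := (pd_contDiff he j).continuous
  have h1 := integral_mul_fderiv_eq_neg_fderiv_mul_of_integrable (μ := (volume : Measure (V n)))
    (f := f) (g := ex (-ξ)) (v := Pi.single j 1)
    (((pd_contDiff hf j).continuous.mul he.continuous).integrable_of_hasCompactSupport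
      hc'.mul_right)
    ((hf.continuous.mul hep).integrable_of_hasCompactSupport hc.mul_right)
    ((hf.continuous.mul he.continuous).integrable_of_hasCompactSupport hc.mul_right)
    (fun x _ => (hf.differentiable (by simp)) x) (fun x _ => (he.differentiable (by simp)) x)
  have h2 : ft (pd j f) ξ = -∫ x, f x * pd j (ex (-ξ)) x := by
    unfold ft
    have h3 : ∫ x, f x * pd j (ex (-ξ)) x = -∫ x, pd j f x * ex (-ξ) x := h1
    rw [h3, neg_neg]
  have h3 : (fun x => f x * pd j (ex (-ξ)) x) =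
      fun x => (-(2 * Real.pi * Complex.I * (ξ j : ℂ))) * (f x * ex (-ξ) x) := by
    funext x
    rw [ex_pd, Pi.neg_apply]
    push_cast
    ring
  rw [h2, h3, integral_const_mul]
  unfold ft
  ring

/-! ## Bounds of the derivatives -/

lemma norm_e (j : Fin n) : ‖(Pi.single j 1 : V n)‖ ≤ 1 := by
  refine (pi_norm_le_iff_of_nonneg zero_le_one).2 fun i => ?_
  by_cases h : i = j
  · subst h; simp
  · rw [Pi.single_eq_of_ne h]; simp

lemma cl_pd {k : ℕ} {B : ℝ} {f : V n → ℂ} (hf : ContDiff ℝ ∞ f) (h : Cl (k + 1) B f) (j : Fin n) :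
    Cl k B (pd j f) := by
  intro l hl x
  set L : (V n →L[ℝ] ℂ) →L[ℝ] ℂ := ContinuousLinearMap.apply ℝ ℂ (Pi.single j 1 : V n) with hL
  have hLn : ‖L‖ ≤ 1 := ContinuousLinearMap.opNorm_le_bound _ zero_le_one fun A => by
    have h1 : ‖A (Pi.single j 1)‖ ≤ ‖A‖ * ‖(Pi.single j 1 : V n)‖ := A.le_opNorm _
    have h2 := mul_le_mul_of_nonneg_left (norm_e j) (norm_nonneg A)
    rw [mul_one] at h2
    rw [one_mul]
    exact h1.trans h2
  have hd : ContDiff ℝ ∞ (fderiv ℝ f) := hf.fderiv_right (m := ∞) le_rfl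
  have h1 : ‖iteratedFDeriv ℝ l (L ∘ fderiv ℝ f) x‖ ≤ ‖L‖ * ‖iteratedFDeriv ℝ l (fderiv ℝ f) x‖ :=
    L.norm_iteratedFDeriv_comp_left (N := ∞) hd.contDiffAt (by exact_mod_cast le_top)
  have h2 : pd j f = L ∘ fderiv ℝ f := rfl
  rw [h2]
  rw [norm_iteratedFDeriv_fderiv] at h1
  refine h1.trans ?_
  calc ‖L‖ * ‖iteratedFDeriv ℝ (l + 1) f x‖ ≤ 1 * ‖iteratedFDeriv ℝ (l + 1) f x‖ :=
        mul_le_mul_of_nonneg_right hLn (norm_nonneg _)
    _ ≤ B := by rw [one_mul]; exact h (l + 1) (by omega) x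

lemma cl_zero {k : ℕ} {B : ℝ} {f : V n → ℂ} (h : Cl k B f) (x : V n) : ‖f x‖ ≤ B := by
  have := h 0 (Nat.zero_le _) x
  rwa [norm_iteratedFDeriv_zero] at this

lemma cl_mono {k l : ℕ} {B : ℝ} {f : V n → ℂ} (h : Cl k B f) (hl : l ≤ k) : Cl l B f :=
  fun i hi x => h i (hi.trans hl) x

lemma exists_cl {f : V n → ℂ} (hf : ContDiff ℝ ∞ f) (hc : HasCompactSupport f) (k : ℕ) :
    ∃ B, Cl k B f := by
  induction k with
  | zero =>
    obtain ⟨C, hC⟩ := (hf.continuous_iteratedFDeriv (m := 0)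
      (by exact_mod_cast le_top)).bounded_above_of_compact_support (hc.iteratedFDeriv 0)
    refine ⟨C, fun l hl x => ?_⟩
    have h0 : l = 0 := by omega
    subst h0
    exact hC x
  | succ k ih =>
    obtain ⟨B, hB⟩ := ih
    obtain ⟨C, hC⟩ := (hf.continuous_iteratedFDeriv (m := k + 1)
      (by exact_mod_cast le_top)).bounded_above_of_compact_support (hc.iteratedFDeriv (k + 1))
    refine ⟨max B C, fun l hl x => ?_⟩
    rcases Nat.lt_or_ge l (k + 1) with h | h
    · exact (hB l (by omega) x).trans (le_max_left _ _)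
    · have h0 : l = k + 1 := by omega
      subst h0
      exact (hC x).trans (le_max_right _ _)

lemma vol_cube : (volume : Measure (V n)) (cube n) = 1 := by
  have h : cube n = Set.pi univ fun _ => Ioo (0 : ℝ) 1 := by
    ext x
    simp [cube]
  rw [h, Real.volume_pi_Ioo]
  simp

/-- the basic estimate -/
lemma ft_bound : ∀ (N : ℕ) {f : V n → ℂ}, ContDiff ℝ ∞ f → tsupport f ⊆ cube n → ∀ {B : ℝ},
    Cl N B f → ∀ (ξ : V n) (j : Option (Fin n)), (2 * Real.pi * |j.elim 1 ξ|) ^ (j.elim 0 fun _ => N)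
      * ‖ft f ξ‖ ≤ B := by
  have key0 : ∀ {f : V n → ℂ}, ContDiff ℝ ∞ f → tsupport f ⊆ cube n → ∀ {B : ℝ}, 
      (∀ x, ‖f x‖ ≤ B) → ∀ (ξ : V n), ‖ft f ξ‖ ≤ B := by
    intro f hf hs B hB ξ
    unfold ft
    have h1 : ∫ x, f x * ex (-ξ) x = ∫ x in cube n, f x * ex (-ξ) x := by
      refine (setIntegral_eq_integral_of_forall_compl_eq_zero fun x hx => ?_).symm
      have : f x = 0 := by
        by_contra h
        exact hx (hs (subset_tsupport f h))
      rw [this, zero_mul]
    rw [h1]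
    have h2 := norm_setIntegral_le_of_norm_le_const (μ := (volume : Measure (V n))) (s := cube n)
      (f := fun x => f x * ex (-ξ) x) (C := B) (by rw [vol_cube]; exact ENNReal.one_lt_top)
      (fun x _ => by rw [norm_mul, ex_norm, mul_one]; exact hB x)
    have h3 : (volume : Measure (V n)).real (cube n) = 1 := by
      rw [Measure.real, vol_cube]; rfl
    rwa [h3, mul_one] at h2
  intro N
  induction N with
  | zero =>
    intro f hf hs B hB ξ j
    have := key0 hf hs (cl_zero hB) ξ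
    cases j <;> simpa using this
  | succ N ih =>
    intro f hf hs B hB ξ j
    cases j with
    | none => simpa using key0 hf hs (cl_zero hB) ξ
    | some j =>
      have h1 := ih (pd_contDiff hf j) ((tsupport_pd f j).trans hs) (cl_pd hf hB j) ξ (some j)
      rw [ft_pd hf hs, norm_mul] at h1
      have h2 : ‖(2 * Real.pi * Complex.I * (ξ j : ℂ) : ℂ)‖ = 2 * Real.pi * |ξ j| := by
        rw [norm_mul, norm_mul, norm_mul, Complex.norm_I, Complex.norm_real, Complex.norm_real,
          Real.norm_eq_abs, Real.norm_eq_abs, abs_of_pos Real.pi_pos, Complex.norm_ofNat]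
        ring
      rw [h2] at h1
      simp only [Option.elim_some] at h1 ⊢
      calc (2 * Real.pi * |ξ j|) ^ (N + 1) * ‖ft f ξ‖ =
          (2 * Real.pi * |ξ j|) ^ N * (2 * Real.pi * |ξ j| * ‖ft f ξ‖) := by ring
        _ ≤ B := h1

end Vale.Agent.P088.H776
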